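import Vale.Agent.Lib.OrdRem.BlowRem

/-!
# The polynomial ordered removal lemma for all two by two patterns and their blow-ups

Every binary two by two pattern, and more generally every square pattern of any size whose rows
and whose columns each split into at most two consecutive intervals so that the pattern is
constant on the resulting blocks, satisfies the polynomial ordered matrix removal property.
-/

namespace Vale.Agent.Results.P037.TwoByTwoBlowups

/-- The pair of index choices `p.1` (rows) and `p.2` (columns), both strictly increasing, is an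
ordered copy of `H` in `A`. -/
def IsOrderedCopy {k n : ℕ} (H : Matrix (Fin k) (Fin k) Bool) (A : Matrix (Fin n) (Fin n) Bool)
    (p : (Fin k → Fin n) × (Fin k → Fin n)) : Prop :=
  StrictMono p.1 ∧ StrictMono p.2 ∧ ∀ i j, A (p.1 i) (p.2 j) = H i j

/-- The number of ordered copies of `H` in `A`. -/
noncomputable def numCopies {k n : ℕ} (H : Matrix (Fin k) (Fin k) Bool)
    (A : Matrix (Fin n) (Fin n) Bool) : ℕ :=
  Nat.card {p : (Fin k → Fin n) × (Fin k → Fin n) // IsOrderedCopy H A p}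

/-- The number of entries in which two matrices differ. -/
noncomputable def numDiff {n : ℕ} (A B : Matrix (Fin n) (Fin n) Bool) : ℕ :=
  Nat.card {p : Fin n × Fin n // A p.1 p.2 ≠ B p.1 p.2}

/-- The distance of `A` from `H`-freeness: the least number of entries in which `A` differs from
a matrix with no ordered copy of `H`, divided by `n ^ 2`. -/
noncomputable def distFree {k n : ℕ} (H : Matrix (Fin k) (Fin k) Bool)
    (A : Matrix (Fin n) (Fin n) Bool) : ℝ :=
  ((sInf {d : ℕ | ∃ B : Matrix (Fin n) (Fin n) Bool, numCopies H B = 0 ∧ d = numDiff A B} : ℕ) : ℝ)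
    / (n : ℝ) ^ 2

/-- `H` is a monotone blow-up of a two by two pattern: it is obtained from some two by two pattern
by repeating rows and columns consecutively. Every two by two pattern is one. -/
def IsBlowup {k : ℕ} (H : Matrix (Fin k) (Fin k) Bool) : Prop :=
  ∃ (G : Matrix (Fin 2) (Fin 2) Bool) (f g : Fin k → Fin 2), Monotone f ∧ Monotone g ∧
    ∀ i j, H i j = G (f i) (g j)

theorem numCopies_eq {k n : ℕ} (H : Matrix (Fin k) (Fin k) Bool)
    (A : Matrix (Fin n) (Fin n) Bool) : numCopies H A = OrdRem.cntH H A := by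
  classical
  unfold numCopies OrdRem.cntH
  rw [Nat.card_eq_fintype_card, Fintype.card_subtype]
  rfl

theorem numDiff_eq {n : ℕ} (A B : Matrix (Fin n) (Fin n) Bool) :
    numDiff A B = OrdRem.ham A B := by
  classical
  unfold numDiff OrdRem.ham
  rw [Nat.card_eq_fintype_card, Fintype.card_subtype]

theorem remH_of_isBlowup {k : ℕ} (hk : 1 ≤ k) (H : Matrix (Fin k) (Fin k) Bool)
    (hH : IsBlowup H) : OrdRem.RemH H := by
  obtain ⟨G, f, g, hf, hg, h⟩ := hH
  rcases Nat.lt_or_ge 1 k with h2 | h1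
  · exact OrdRem.remH_blowup h2 G f g hf hg H h
  · obtain rfl : k = 1 := by omega
    exact OrdRem.remH_one H

/-- **Main result.** The polynomial ordered matrix removal property holds for every two by two
pattern and for all monotone blow-ups of such patterns. -/
theorem result (k : ℕ) (hk : 1 ≤ k) (H : Matrix (Fin k) (Fin k) Bool) (hH : IsBlowup H) :
    ∃ c C : ℝ, 0 < c ∧ 0 < C ∧ ∀ n : ℕ, 1 ≤ n → ∀ ε : ℝ, 0 < ε → ε < 1 →
      ∀ A : Matrix (Fin n) (Fin n) Bool, ε ≤ distFree H A →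
        c * ε ^ C * (n : ℝ) ^ (2 * k) ≤ (numCopies H A : ℝ) := by
  obtain ⟨K, C, hK, hrem⟩ := remH_of_isBlowup hk H hH
  have hK' : (0 : ℝ) < (K : ℝ) := by exact_mod_cast hK
  refine ⟨1 / ((K : ℝ) * 2 ^ (C + 1)), ((C + 1 : ℕ) : ℝ), by positivity, by positivity, ?_⟩
  intro n hn ε hε hε1 A hA
  have hn' : (0 : ℝ) < (n : ℝ) := by exact_mod_cast hn
  have hinv : 1 < 1 / ε := by
    rw [lt_div_iff₀ hε]
    linarith
  -- the integer parameter
  set m : ℕ := ⌈1 / ε⌉₊ with hm
  have hm1 : 1 / ε ≤ (m : ℝ) := Nat.le_ceil _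
  have hm2 : (m : ℝ) ≤ 2 / ε := by
    have h1 : (m : ℝ) < 1 / ε + 1 := Nat.ceil_lt_add_one (by positivity)
    have h2 : 2 / ε = 1 / ε + 1 / ε := by ring
    linarith
  have hm3 : 2 ≤ m := by
    have h1 : (1 : ℝ) < (m : ℝ) := lt_of_lt_of_le hinv hm1
    have h2 : 1 < m := by exact_mod_cast h1
    omega
  have hfar : ∀ B : Fin n → Fin n → Bool, OrdRem.cntH H B = 0 → n ^ 2 ≤ m * OrdRem.ham A B := by
    intro B hB
    have h1 : sInf {d : ℕ | ∃ B : Matrix (Fin n) (Fin n) Bool,
        numCopies H B = 0 ∧ d = numDiff A B} ≤ OrdRem.ham A B := by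
      exact Nat.sInf_le ⟨B, (numCopies_eq H B).trans hB, (numDiff_eq A B).symm⟩
    have h2 : ε * (n : ℝ) ^ 2 ≤ (OrdRem.ham A B : ℝ) := by
      have h3 : ε ≤ (OrdRem.ham A B : ℝ) / (n : ℝ) ^ 2 := by
        refine hA.trans ?_
        unfold distFree
        gcongr
      rwa [le_div_iff₀ (by positivity)] at h3
    have h4 : (n : ℝ) ^ 2 ≤ (m : ℝ) * (OrdRem.ham A B : ℝ) := by
      have h5 : (n : ℝ) ^ 2 = 1 / ε * (ε * (n : ℝ) ^ 2) := by
        field_simp
      rw [h5]
      exact mul_le_mul hm1 h2 (by positivity) (by positivity)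
    exact_mod_cast h4
  have hmain := hrem m hm3 n hn A hfar
  have hmain' : (n : ℝ) ^ (2 * k) ≤ (K : ℝ) * (m : ℝ) ^ C * (OrdRem.cntH H A : ℝ) := by
    exact_mod_cast hmain
  rw [numCopies_eq, Real.rpow_natCast]
  have h6 : (m : ℝ) ^ C ≤ (m : ℝ) ^ (C + 1) :=
    pow_le_pow_right₀ (by exact_mod_cast (by omega : 1 ≤ m)) (by omega)
  have h7 : (m : ℝ) ^ (C + 1) ≤ (2 / ε) ^ (C + 1) := by
    gcongr
  have h8 : (n : ℝ) ^ (2 * k) ≤ (K : ℝ) * (2 / ε) ^ (C + 1) * (OrdRem.cntH H A : ℝ) := by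
    refine hmain'.trans ?_
    gcongr
    exact h6.trans h7
  have h9 : 1 / ((K : ℝ) * 2 ^ (C + 1)) * ε ^ (C + 1) * (n : ℝ) ^ (2 * k) ≤
      1 / ((K : ℝ) * 2 ^ (C + 1)) * ε ^ (C + 1) *
        ((K : ℝ) * (2 / ε) ^ (C + 1) * (OrdRem.cntH H A : ℝ)) := by
    gcongr
  refine h9.trans (le_of_eq ?_)
  rw [div_pow]
  field_simp

end Vale.Agent.Results.P037.TwoByTwoBlowups
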